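import Mathlib
import Crest.Prelude.Def_AsymptoticConvexity

/-!
Shared tools for row 125 (S0166-S0169): the predicates of `Def_AsymptoticConvexity` restated for a
type with type-class instances (definitionally equal to the record versions), and the "game lemma":
a space in which a vector player can keep partial sums bounded for any prescribed number of rounds
against an adversary choosing closed finite-codimensional subspaces admits no equivalent
asymptotically uniformly convex norm.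
-/

namespace Crest.Agent.Helper7.AUC

open Crest.AnalysisR Filter Topology

section Generic

variable {V : Type*} [NormedAddCommGroup V] [NormedSpace ℝ V]

/-- `F` is (the carrier of) a closed linear subspace of finite codimension. -/
def IsCof (F : Set V) : Prop :=
  ∃ S : Submodule ℝ V, (S : Set V) = F ∧ IsClosed F ∧ FiniteDimensional ℝ (V ⧸ S)

/-- `N` is a norm equivalent to the given one. -/
def IsEquivNorm (N : V → ℝ) : Prop :=
  (∀ x y : V, N (x + y) ≤ N x + N y) ∧ (∀ (a : ℝ) (x : V), N (a • x) = abs a * N x) ∧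
    ∃ a b : ℝ, 0 < a ∧ ∀ x : V, a * ‖x‖ ≤ N x ∧ N x ≤ b * ‖x‖

/-- `N` is asymptotically uniformly convex. -/
def IsAUC (N : V → ℝ) : Prop :=
  ∀ t : ℝ, 0 < t → ∃ c : ℝ, 0 < c ∧ ∀ x : V, N x = 1 → ∃ F : Set V, IsCof F ∧
    ∀ y ∈ F, N y = 1 → c ≤ N (x + t • y) - 1

/-- The vector player can play `n` more rounds from the partial sum `S`: against every closed
finite-codimensional `F` there is `y ∈ F` of norm at least `ρ` with `‖S + y‖ ≤ C`, from which
`n - 1` more rounds can be played. -/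
def Good (C ρ : ℝ) : ℕ → V → Prop
  | 0, _ => True
  | n + 1, S => ∀ F : Set V, IsCof F → ∃ y ∈ F, ρ ≤ ‖y‖ ∧ ‖S + y‖ ≤ C ∧ Good C ρ n (S + y)

theorem good_zero (C ρ : ℝ) (S : V) : Good C ρ 0 S := trivial

theorem good_succ_iff (C ρ : ℝ) (n : ℕ) (S : V) :
    Good C ρ (n + 1) S ↔ ∀ F : Set V, IsCof F → ∃ y ∈ F, ρ ≤ ‖y‖ ∧ ‖S + y‖ ≤ C ∧
      Good C ρ n (S + y) := Iff.rfl

/-- A convenient way to produce `Good`: a family of invariants `P j` (`j` = rounds remaining). -/
theorem good_of_invariant {C ρ : ℝ} (P : ℕ → V → Prop)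
    (step : ∀ (j : ℕ) (S : V), P (j + 1) S → ∀ F : Set V, IsCof F →
      ∃ y ∈ F, ρ ≤ ‖y‖ ∧ ‖S + y‖ ≤ C ∧ P j (S + y))
    (n : ℕ) (S : V) (hS : P n S) : Good C ρ n S := by
  induction n generalizing S with
  | zero => trivial
  | succ n ih =>
    intro F hF
    obtain ⟨y, hyF, hy, hSy, hP⟩ := step n S hS F hF
    exact ⟨y, hyF, hy, hSy, ih _ hP⟩

omit [NormedSpace ℝ V] in
private theorem N_pos {N : V → ℝ} {a : ℝ} (ha : 0 < a) (hab : ∀ x : V, a * ‖x‖ ≤ N x)
    {x : V} (hx : 0 < ‖x‖) : 0 < N x :=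
  lt_of_lt_of_le (mul_pos ha hx) (hab x)

/-- Convexity along a ray: growth at `t₀` persists at every `τ ≥ t₀`. -/
private theorem ray_growth {N : V → ℝ} (hsub : ∀ x y : V, N (x + y) ≤ N x + N y)
    (hhom : ∀ (a : ℝ) (x : V), N (a • x) = abs a * N x)
    {x yh : V} {t₀ τ c : ℝ} (ht₀ : 0 < t₀) (hτ : t₀ ≤ τ) (hc : 0 ≤ c)
    (hNx : N x = 1) (hgrow : c ≤ N (x + t₀ • yh) - 1) :
    1 + c ≤ N (x + τ • yh) := by
  have hτpos : 0 < τ := lt_of_lt_of_le ht₀ hτ
  have hconv : x + t₀ • yh = (1 - t₀ / τ) • x + (t₀ / τ) • (x + τ • yh) := by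
    have e1 : (t₀ / τ) • (x + τ • yh) = (t₀ / τ) • x + t₀ • yh := by
      rw [smul_add, smul_smul, div_mul_cancel₀ _ hτpos.ne']
    rw [e1, sub_smul, one_smul]
    abel
  have hratio : 0 ≤ 1 - t₀ / τ := by
    rw [sub_nonneg, div_le_one hτpos]; exact hτ
  have hratio' : 0 < t₀ / τ := div_pos ht₀ hτpos
  have h1 : N (x + t₀ • yh) ≤ (1 - t₀ / τ) * N x + (t₀ / τ) * N (x + τ • yh) := by
    have h := hsub ((1 - t₀ / τ) • x) ((t₀ / τ) • (x + τ • yh))
    rw [← hconv, hhom (1 - t₀ / τ) x, hhom (t₀ / τ) (x + τ • yh), abs_of_nonneg hratio,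
      abs_of_pos hratio'] at h
    exact h
  rw [hNx, mul_one] at h1
  have h2 : 1 + c ≤ (1 - t₀ / τ) + (t₀ / τ) * N (x + τ • yh) := by linarith
  have hle : t₀ / τ ≤ 1 := by rw [div_le_one hτpos]; exact hτ
  by_contra hlt
  rw [not_le] at hlt
  have : (t₀ / τ) * N (x + τ • yh) ≤ (t₀ / τ) * (1 + c) :=
    mul_le_mul_of_nonneg_left hlt.le hratio'.le
  nlinarith

/-- **Game lemma.** If for every `n` the vector player has a starting vector `S` with
`ρ ≤ ‖S‖ ≤ C` from which `n` rounds can be played, then no equivalent norm is asymptotically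
uniformly convex. -/
theorem not_isAUC_of_good {C ρ : ℝ} (hρ : 0 < ρ)
    (h : ∀ n : ℕ, ∃ S : V, ρ ≤ ‖S‖ ∧ ‖S‖ ≤ C ∧ Good C ρ n S)
    (N : V → ℝ) (hN : IsEquivNorm N) : ¬ IsAUC N := by
  obtain ⟨hsub, hhom, a, b, ha, hab⟩ := hN
  intro hAUC
  obtain ⟨S₀, hS₀ρ, hS₀C, -⟩ := h 0
  have hC : 0 < C := lt_of_lt_of_le hρ (hS₀ρ.trans hS₀C)
  have hb : 0 < b := by
    have h1 := (hab S₀).1
    have h2 := (hab S₀).2
    have hS₀ : 0 < ‖S₀‖ := lt_of_lt_of_le hρ hS₀ρ
    by_contra hb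
    rw [not_lt] at hb
    have : b * ‖S₀‖ ≤ 0 := mul_nonpos_of_nonpos_of_nonneg hb hS₀.le
    have : 0 < a * ‖S₀‖ := mul_pos ha hS₀
    linarith
  set t₀ : ℝ := a * ρ / (b * C) with ht₀def
  have ht₀ : 0 < t₀ := div_pos (mul_pos ha hρ) (mul_pos hb hC)
  obtain ⟨c, hc, hF⟩ := hAUC t₀ ht₀
  -- main induction
  have key : ∀ n : ℕ, ∀ S : V, 0 < ‖S‖ → ‖S‖ ≤ C → Good C ρ n S →
      ∃ S' : V, ‖S'‖ ≤ C ∧ (1 + c) ^ n * N S ≤ N S' := by
    intro n
    induction n with
    | zero =>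
      intro S _ hSC _
      exact ⟨S, hSC, by simp⟩
    | succ n ih =>
      intro S hSpos hSC hgood
      have hNS : 0 < N S := N_pos ha (fun x => (hab x).1) hSpos
      have hNx : N ((N S)⁻¹ • S) = 1 := by
        rw [hhom, abs_of_pos (inv_pos.mpr hNS), inv_mul_cancel₀ hNS.ne']
      obtain ⟨F, hFcof, hFprop⟩ := hF _ hNx
      obtain ⟨y, hyF, hyρ, hSyC, hgood'⟩ := hgood F hFcof
      obtain ⟨Sub, hSub, -, -⟩ := hFcof
      have hypos : 0 < ‖y‖ := lt_of_lt_of_le hρ hyρ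
      have hNy : 0 < N y := N_pos ha (fun x => (hab x).1) hypos
      set yh : V := (N y)⁻¹ • y with hyh
      have hyhF : yh ∈ F := by
        rw [← hSub] at hyF ⊢
        exact Sub.smul_mem _ hyF
      have hNyh : N yh = 1 := by
        rw [hyh, hhom, abs_of_pos (inv_pos.mpr hNy), inv_mul_cancel₀ hNy.ne']
      have hgrow := hFprop yh hyhF hNyh
      set τ : ℝ := N y / N S with hτdef
      have hτ : t₀ ≤ τ := by
        rw [ht₀def, hτdef, div_le_div_iff₀ (mul_pos hb hC) hNS]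
        have h1 : a * ρ ≤ N y := (mul_le_mul_of_nonneg_left hyρ ha.le).trans (hab y).1
        have h2 : N S ≤ b * C := ((hab S).2).trans (mul_le_mul_of_nonneg_left hSC hb.le)
        calc a * ρ * N S ≤ N y * N S := mul_le_mul_of_nonneg_right h1 hNS.le
          _ ≤ N y * (b * C) := mul_le_mul_of_nonneg_left h2 hNy.le
      have hyeq : N S • (τ • yh) = y := by
        rw [hyh, smul_smul, smul_smul, hτdef]
        have : N S * (N y / N S) * (N y)⁻¹ = 1 := by
          field_simp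
        rw [this, one_smul]
      have hray : 1 + c ≤ N ((N S)⁻¹ • S + τ • yh) :=
        ray_growth hsub hhom ht₀ hτ hc.le hNx hgrow
      have hSy : S + y = N S • ((N S)⁻¹ • S + τ • yh) := by
        rw [smul_add, hyeq, smul_smul, mul_inv_cancel₀ hNS.ne', one_smul]
      have hround : (1 + c) * N S ≤ N (S + y) := by
        rw [hSy, hhom, abs_of_pos hNS, mul_comm]
        exact mul_le_mul_of_nonneg_left hray hNS.le
      have hSypos : 0 < ‖S + y‖ := by
        rw [norm_pos_iff]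
        intro h0
        have hz : N (S + y) = 0 := by
          rw [h0]
          have := hhom 0 (0 : V)
          simpa using this
        have : 0 < (1 + c) * N S := mul_pos (by linarith) hNS
        linarith
      obtain ⟨S', hS'C, hS'⟩ := ih (S + y) hSypos hSyC hgood'
      refine ⟨S', hS'C, le_trans ?_ hS'⟩
      rw [pow_succ, mul_assoc]
      exact mul_le_mul_of_nonneg_left hround (pow_nonneg (by linarith) n)
  -- contradiction for large n
  obtain ⟨n, hn⟩ := exists_nat_gt (b * C / (a * ρ * c))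
  obtain ⟨S, hSρ, hSC, hgood⟩ := h n
  have hSpos : 0 < ‖S‖ := lt_of_lt_of_le hρ hSρ
  obtain ⟨S', hS'C, hS'⟩ := key n S hSpos hSC hgood
  have h1 : (1 + c) ^ n * (a * ρ) ≤ b * C := by
    calc (1 + c) ^ n * (a * ρ) ≤ (1 + c) ^ n * N S :=
          mul_le_mul_of_nonneg_left
            ((mul_le_mul_of_nonneg_left hSρ ha.le).trans (hab S).1) (pow_nonneg (by linarith) n)
      _ ≤ N S' := hS'
      _ ≤ b * ‖S'‖ := (hab S').2
      _ ≤ b * C := mul_le_mul_of_nonneg_left hS'C hb.le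
  have h2 : 1 + (n : ℝ) * c ≤ (1 + c) ^ n := one_add_mul_le_pow (by linarith) n
  have haρc : 0 < a * ρ * c := mul_pos (mul_pos ha hρ) hc
  rw [div_lt_iff₀ haρc] at hn
  have h3 : (1 + (n : ℝ) * c) * (a * ρ) ≤ b * C :=
    (mul_le_mul_of_nonneg_right h2 (mul_pos ha hρ).le).trans h1
  nlinarith [mul_pos ha hρ]

end Generic

/-! ### Bridges to the record versions of `Def_AsymptoticConvexity` -/

theorem isCof_iff (E : RealBanach) (F : Set E.X) :
    E.IsCof F ↔ @IsCof E.X E.normed E.space F := Iff.rfl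

theorem isEquivNorm_iff (E : RealBanach) (N : E.X → ℝ) :
    E.IsEquivNorm N ↔ @IsEquivNorm E.X E.normed E.space N := Iff.rfl

theorem isAUC_iff (E : RealBanach) (N : E.X → ℝ) :
    E.IsAUC N ↔ @IsAUC E.X E.normed E.space N := Iff.rfl

/-- Record form of the game lemma. -/
theorem not_isAUC_of_good' (E : RealBanach) {C ρ : ℝ} (hρ : 0 < ρ)
    (h : ∀ n : ℕ, ∃ S : E.X, ρ ≤ @norm E.X E.normed.toNorm S ∧ @norm E.X E.normed.toNorm S ≤ C ∧
      @Good E.X E.normed E.space C ρ n S)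
    (N : E.X → ℝ) (hN : E.IsEquivNorm N) : ¬ E.IsAUC N :=
  @not_isAUC_of_good E.X E.normed E.space C ρ hρ h N hN

end Crest.Agent.Helper7.AUC
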