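import Mathlib

set_option autoImplicit false

open Set

namespace Crest.Agent.Helper7

/-- chord lower bound for a continuous midpoint-concave function -/
theorem chord_le_of_midpoint (f : ℝ → ℝ) (hc : Continuous f)
    (hmid : ∀ x y : ℝ, f x + f y ≤ 2 * f ((x + y) / 2)) (u v : ℝ) (huv : u < v)
    (z : ℝ) (hz : z ∈ Icc u v) :
    f u + (f v - f u) * ((z - u) / (v - u)) ≤ f z := by
  have hvu : 0 < v - u := sub_pos.mpr huv
  set L : ℝ → ℝ := fun z => f u + (f v - f u) * ((z - u) / (v - u)) with hL
  set h : ℝ → ℝ := fun z => f z - L z with hh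
  have hLc : Continuous L := by
    rw [hL]; fun_prop
  have hhc : Continuous h := hc.sub hLc
  have hhu : h u = 0 := by simp [hh, hL]
  have hhv : h v = 0 := by
    simp only [hh, hL]
    rw [div_self (ne_of_gt hvu)]; ring
  have hLmid : ∀ x y : ℝ, L x + L y = 2 * L ((x + y) / 2) := by
    intro x y
    simp only [hL]
    field_simp
    ring
  have hhmid : ∀ x y : ℝ, h x + h y ≤ 2 * h ((x + y) / 2) := by
    intro x y
    have := hmid x y
    have h2 := hLmid x y
    simp only [hh]
    linarith
  -- minimum on the compact interval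
  obtain ⟨z₀, hz₀, hmin⟩ := (isCompact_Icc (a := u) (b := v)).exists_isMinOn
    ⟨u, left_mem_Icc.mpr huv.le⟩ hhc.continuousOn
  by_contra hneg
  rw [not_le] at hneg
  have hzneg : h z < 0 := by
    simp only [hh, hL]; linarith
  have hm : h z₀ < 0 := lt_of_le_of_lt (hmin hz) hzneg
  -- the set of minimisers
  set S : Set ℝ := Icc u v ∩ h ⁻¹' {h z₀} with hS
  have hScomp : IsCompact S :=
    isCompact_Icc.inter_right (isClosed_singleton.preimage hhc)
  have hSne : S.Nonempty := ⟨z₀, hz₀, rfl⟩
  obtain ⟨z₁, hz₁S, hz₁least⟩ := hScomp.exists_isLeast hSne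
  have hz₁I : z₁ ∈ Icc u v := hz₁S.1
  have hz₁v : h z₁ = h z₀ := hz₁S.2
  have hz₁u : u < z₁ := by
    rcases eq_or_lt_of_le hz₁I.1 with h' | h'
    · exfalso; rw [← h', hhu] at hz₁v; linarith
    · exact h'
  have hz₁v' : z₁ < v := by
    rcases eq_or_lt_of_le hz₁I.2 with h' | h'
    · exfalso; rw [h', hhv] at hz₁v; linarith
    · exact h'
  set δ : ℝ := min (z₁ - u) (v - z₁) with hδ
  have hδpos : 0 < δ := lt_min (sub_pos.mpr hz₁u) (sub_pos.mpr hz₁v')
  have hδ1 : δ ≤ z₁ - u := min_le_left _ _
  have hδ2 : δ ≤ v - z₁ := min_le_right _ _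
  have hleft : z₁ - δ ∈ Icc u v := ⟨by linarith, by linarith⟩
  have hright : z₁ + δ ∈ Icc u v := ⟨by linarith, by linarith⟩
  have h1 : h z₀ ≤ h (z₁ - δ) := hmin hleft
  have h2 : h z₀ ≤ h (z₁ + δ) := hmin hright
  have h1' : h (z₁ - δ) ≠ h z₀ := by
    intro heq
    have : z₁ - δ ∈ S := ⟨hleft, heq⟩
    have := hz₁least this
    linarith
  have h1'' : h z₀ < h (z₁ - δ) := lt_of_le_of_ne h1 (Ne.symm h1')
  have h3 := hhmid (z₁ - δ) (z₁ + δ)
  have h4 : (z₁ - δ + (z₁ + δ)) / 2 = z₁ := by ring
  rw [h4, hz₁v] at h3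
  linarith

/-- a continuous midpoint-concave function on the real line is concave -/
theorem concaveOn_of_midpoint (f : ℝ → ℝ) (hc : Continuous f)
    (hmid : ∀ x y : ℝ, f x + f y ≤ 2 * f ((x + y) / 2)) : ConcaveOn ℝ Set.univ f := by
  refine ⟨convex_univ, ?_⟩
  intro x _ y _ a b ha hb hab
  simp only [smul_eq_mul]
  rcases lt_trichotomy x y with hxy | hxy | hxy
  · have ha' : a = 1 - b := by linarith
    subst ha'
    have hb1 : b ≤ 1 := by linarith
    have hp1 : 0 ≤ b * (y - x) := mul_nonneg hb (by linarith)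
    have hp2 : 0 ≤ (1 - b) * (y - x) := mul_nonneg ha (by linarith)
    have hz : (1 - b) * x + b * y ∈ Icc x y := by
      constructor
      · linarith
      · linarith
    have := chord_le_of_midpoint f hc hmid x y hxy ((1 - b) * x + b * y) hz
    have hyx : y - x ≠ 0 := by linarith
    have e : ((1 - b) * x + b * y - x) / (y - x) = b := by
      field_simp
      ring
    rw [e] at this
    linarith
  · subst hxy
    have : a * f x + b * f x = f x := by rw [← add_mul, hab, one_mul]
    have h2 : a * x + b * x = x := by rw [← add_mul, hab, one_mul]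
    rw [this, h2]
  · have hb' : b = 1 - a := by linarith
    subst hb'
    have hp1 : 0 ≤ a * (x - y) := mul_nonneg ha (by linarith)
    have hp2 : 0 ≤ (1 - a) * (x - y) := mul_nonneg hb (by linarith)
    have hz : a * x + (1 - a) * y ∈ Icc y x := by
      constructor
      · linarith
      · linarith
    have := chord_le_of_midpoint f hc hmid y x hxy (a * x + (1 - a) * y) hz
    have hyx : x - y ≠ 0 := by linarith
    have e : (a * x + (1 - a) * y - y) / (x - y) = a := by
      field_simp
      ring
    rw [e] at this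
    linarith

/-- M3a: four-point log-concavity plus continuity gives concavity of `log ∘ F`. -/
theorem concaveOn_log_of_fourPoint (F : ℝ → ℝ) (hcont : Continuous F) (hpos : ∀ t, 0 < F t)
    (h4 : ∀ t u h : ℝ, t ≤ u → 0 ≤ h → F t * F (u + h) ≤ F (t + h) * F u) :
    ConcaveOn ℝ Set.univ (fun u => Real.log (F u)) := by
  have hlc : Continuous (fun u => Real.log (F u)) :=
    hcont.log (fun t => ne_of_gt (hpos t))
  apply concaveOn_of_midpoint _ hlc
  -- midpoint inequality
  have key : ∀ x y : ℝ, x ≤ y →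
      Real.log (F x) + Real.log (F y) ≤ 2 * Real.log (F ((x + y) / 2)) := by
    intro x y hxy
    have h := h4 x ((x + y) / 2) ((y - x) / 2) (by linarith) (by linarith)
    have e1 : (x + y) / 2 + (y - x) / 2 = y := by ring
    have e2 : x + (y - x) / 2 = (x + y) / 2 := by ring
    rw [e1, e2] at h
    have hm := hpos ((x + y) / 2)
    rw [← Real.log_mul (ne_of_gt (hpos x)) (ne_of_gt (hpos y))]
    have : 2 * Real.log (F ((x + y) / 2)) = Real.log (F ((x + y) / 2) * F ((x + y) / 2)) := by
      rw [Real.log_mul (ne_of_gt hm) (ne_of_gt hm)]; ring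
    rw [this]
    exact Real.log_le_log (mul_pos (hpos x) (hpos y)) h
  intro x y
  rcases le_total x y with hxy | hxy
  · exact key x y hxy
  · have := key y x hxy
    have e : (y + x) / 2 = (x + y) / 2 := by ring
    rw [e] at this
    linarith

end Crest.Agent.Helper7
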