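import Mathlib
import Crest.Agent.Helper7.AUCGame

/-!
Shared tool (W) for row 125: a sequence with an upper `ℓ²` estimate is "weakly null" in the sense
that is needed against closed finite-codimensional subspaces: its distance to any such subspace
tends to zero.
-/

namespace Crest.Agent.Helper7.AUC

open Filter Topology

variable {V : Type*} [NormedAddCommGroup V] [NormedSpace ℝ V]

/-- Counting step: a functional is at least `ε` in absolute value only finitely often along a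
sequence with an upper `ℓ²` estimate. -/
theorem finite_large_of_upper_l2 {d : ℕ → V} {K : ℝ}
    (hK : ∀ (A : Finset ℕ) (a : ℕ → ℝ), ‖∑ n ∈ A, a n • d n‖ ≤ K * Real.sqrt (∑ n ∈ A, a n ^ 2))
    (ψ : V →L[ℝ] ℝ) {ε : ℝ} (hε : 0 < ε) : {n : ℕ | ε ≤ |ψ (d n)|}.Finite := by
  by_contra hinf
  rw [← Set.Infinite] at hinf
  have hK0 : 0 ≤ K := by
    have h := hK {0} (fun _ => 1)
    simp only [Finset.sum_singleton, one_smul, one_pow, Real.sqrt_one, mul_one] at h
    exact (norm_nonneg _).trans h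
  obtain ⟨m, hm⟩ := exists_nat_gt ((K * ‖ψ‖ / ε) ^ 2)
  obtain ⟨A, hAB, hAcard⟩ := hinf.exists_subset_card_eq m
  set a : ℕ → ℝ := fun n => if 0 ≤ ψ (d n) then 1 else -1 with ha
  have ha2 : ∀ n, a n ^ 2 = 1 := by
    intro n; simp only [ha]; split_ifs <;> norm_num
  have habs : ∀ n, a n * ψ (d n) = |ψ (d n)| := by
    intro n; simp only [ha]; split_ifs with h
    · rw [one_mul, abs_of_nonneg h]
    · rw [not_le] at h; rw [abs_of_neg h]; ring
  have h1 : ψ (∑ n ∈ A, a n • d n) = ∑ n ∈ A, |ψ (d n)| := by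
    rw [map_sum]
    refine Finset.sum_congr rfl fun n _ => ?_
    rw [map_smul, smul_eq_mul, habs]
  have h2 : (m : ℝ) * ε ≤ ∑ n ∈ A, |ψ (d n)| := by
    have : ∑ n ∈ A, ε ≤ ∑ n ∈ A, |ψ (d n)| :=
      Finset.sum_le_sum fun n hn => hAB hn
    rwa [Finset.sum_const, hAcard, nsmul_eq_mul] at this
  have h3 : ψ (∑ n ∈ A, a n • d n) ≤ ‖ψ‖ * (K * Real.sqrt m) := by
    calc ψ (∑ n ∈ A, a n • d n) ≤ ‖ψ (∑ n ∈ A, a n • d n)‖ := Real.le_norm_self _
      _ ≤ ‖ψ‖ * ‖∑ n ∈ A, a n • d n‖ := ψ.le_opNorm _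
      _ ≤ ‖ψ‖ * (K * Real.sqrt (∑ n ∈ A, a n ^ 2)) :=
          mul_le_mul_of_nonneg_left (hK A a) (norm_nonneg _)
      _ = ‖ψ‖ * (K * Real.sqrt m) := by
          rw [Finset.sum_congr rfl (fun n _ => ha2 n), Finset.sum_const, hAcard, nsmul_eq_mul,
            mul_one]
  have hmpos : (0 : ℝ) < m := lt_of_le_of_lt (sq_nonneg _) hm
  have hsq : Real.sqrt m * Real.sqrt m = m := Real.mul_self_sqrt hmpos.le
  have hsqpos : 0 < Real.sqrt m := Real.sqrt_pos.mpr hmpos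
  have h4 : (m : ℝ) * ε ≤ ‖ψ‖ * (K * Real.sqrt m) := by
    rw [h1] at h3; exact h2.trans h3
  have h5 : Real.sqrt m * ε ≤ K * ‖ψ‖ := by
    have : Real.sqrt m * (Real.sqrt m * ε) ≤ Real.sqrt m * (K * ‖ψ‖) := by
      calc Real.sqrt m * (Real.sqrt m * ε) = (m : ℝ) * ε := by rw [← mul_assoc, hsq]
        _ ≤ ‖ψ‖ * (K * Real.sqrt m) := h4
        _ = Real.sqrt m * (K * ‖ψ‖) := by ring
    exact le_of_mul_le_mul_left this hsqpos
  have h6 : Real.sqrt m ≤ K * ‖ψ‖ / ε := by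
    rw [le_div_iff₀ hε]; exact h5
  have h7 : (m : ℝ) ≤ (K * ‖ψ‖ / ε) ^ 2 := by
    calc (m : ℝ) = Real.sqrt m ^ 2 := by rw [sq, hsq]
      _ ≤ (K * ‖ψ‖ / ε) ^ 2 := pow_le_pow_left₀ hsqpos.le h6 2
  linarith

/-- Every continuous functional tends to zero along a sequence with an upper `ℓ²` estimate. -/
theorem tendsto_functional_of_upper_l2 {d : ℕ → V} {K : ℝ}
    (hK : ∀ (A : Finset ℕ) (a : ℕ → ℝ), ‖∑ n ∈ A, a n • d n‖ ≤ K * Real.sqrt (∑ n ∈ A, a n ^ 2))
    (ψ : V →L[ℝ] ℝ) : Tendsto (fun n => ψ (d n)) atTop (𝓝 0) := by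
  rw [Metric.tendsto_atTop]
  intro ε hε
  obtain ⟨N, hN⟩ := (finite_large_of_upper_l2 hK ψ hε).bddAbove
  refine ⟨N + 1, fun n hn => ?_⟩
  rw [Real.dist_eq, sub_zero]
  by_contra hlt
  rw [not_lt] at hlt
  have := hN hlt
  omega

/-- **Weak-null lemma (W).** Along a sequence with an upper `ℓ²` estimate, the distance to a
closed finite-codimensional subspace tends to zero: beyond any index there is a term within `ε` of
the subspace. -/
theorem exists_near_cof {d : ℕ → V} {K : ℝ}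
    (hK : ∀ (A : Finset ℕ) (a : ℕ → ℝ), ‖∑ n ∈ A, a n • d n‖ ≤ K * Real.sqrt (∑ n ∈ A, a n ^ 2))
    {F : Set V} (hF : IsCof F) {ε : ℝ} (hε : 0 < ε) (n₀ : ℕ) :
    ∃ n, n₀ ≤ n ∧ ∃ y ∈ F, ‖d n - y‖ < ε := by
  obtain ⟨S, hS, hclosed, hfin⟩ := hF
  have : IsClosed (S : Set V) := hS ▸ hclosed
  have : FiniteDimensional ℝ (V ⧸ S) := hfin
  -- coordinates on the quotient
  let b := Module.finBasis ℝ (V ⧸ S)
  let e : (V ⧸ S) ≃L[ℝ] (Fin (Module.finrank ℝ (V ⧸ S)) → ℝ) := b.equivFunL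
  have hcoord : Tendsto (fun n => e (S.mkQL (d n))) atTop (𝓝 0) := by
    rw [tendsto_pi_nhds]
    intro i
    have := tendsto_functional_of_upper_l2 hK
      (((ContinuousLinearMap.proj i : (Fin (Module.finrank ℝ (V ⧸ S)) → ℝ) →L[ℝ] ℝ).comp
        (e : (V ⧸ S) →L[ℝ] (Fin (Module.finrank ℝ (V ⧸ S)) → ℝ))).comp S.mkQL)
    simpa using this
  have hq : Tendsto (fun n => S.mkQL (d n)) atTop (𝓝 0) := by
    have h := (e.symm.continuous.tendsto 0).comp hcoord
    have h0 : e.symm 0 = 0 := map_zero _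
    rw [h0] at h
    refine h.congr fun n => ?_
    simp
  rw [Metric.tendsto_atTop] at hq
  obtain ⟨N, hN⟩ := hq (ε / 2) (half_pos hε)
  refine ⟨max n₀ N, le_max_left _ _, ?_⟩
  have hsmall : ‖S.mkQL (d (max n₀ N))‖ < ε / 2 := by
    have := hN (max n₀ N) (le_max_right _ _)
    rwa [dist_zero_right] at this
  obtain ⟨m, hm, hmnorm⟩ := Submodule.Quotient.norm_mk_lt (S.mkQL (d (max n₀ N))) (half_pos hε)
  refine ⟨d (max n₀ N) - m, ?_, ?_⟩
  · rw [← hS]
    have : S.mkQ (d (max n₀ N) - m) = 0 := by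
      rw [map_sub]
      have h1 : S.mkQ m = S.mkQL (d (max n₀ N)) := hm
      rw [h1]; simp
    simpa using (Submodule.Quotient.mk_eq_zero S).mp this
  · have : d (max n₀ N) - (d (max n₀ N) - m) = m := by abel
    rw [this]
    linarith

end Crest.Agent.Helper7.AUC

namespace Crest.Agent.Helper7.AUC

variable {V : Type*} [NormedAddCommGroup V] [NormedSpace ℝ V]

/-- The common kernel of finitely many continuous functionals is a closed subspace of finite
codimension. -/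
theorem isCof_iInter_ker {ι : Type*} [Finite ι] (φ : ι → V →L[ℝ] ℝ) :
    IsCof {y : V | ∀ i, φ i y = 0} := by
  classical
  haveI := Fintype.ofFinite ι
  let Φ : V →ₗ[ℝ] (ι → ℝ) := LinearMap.pi fun i => (φ i : V →ₗ[ℝ] ℝ)
  refine ⟨LinearMap.ker Φ, ?_, ?_, ?_⟩
  · ext y
    simp [Φ, funext_iff]
  · have : {y : V | ∀ i, φ i y = 0} = ⋂ i, {y : V | φ i y = 0} := by
      ext y; simp
    rw [this]
    exact isClosed_iInter fun i => isClosed_eq (φ i).continuous continuous_const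
  · exact (LinearMap.quotKerEquivRange Φ).symm.finiteDimensional

/-- The whole space is closed of finite codimension. -/
theorem isCof_univ : IsCof (Set.univ : Set V) := by
  refine ⟨⊤, by simp, isClosed_univ, ?_⟩
  have : Subsingleton (V ⧸ (⊤ : Submodule ℝ V)) := Submodule.Quotient.subsingleton_iff.mpr rfl
  infer_instance

/-- The intersection of two closed finite-codimensional subspaces is one. -/
theorem IsCof.inter {F G : Set V} (hF : IsCof F) (hG : IsCof G) : IsCof (F ∩ G) := by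
  obtain ⟨S, rfl, hSc, hSf⟩ := hF
  obtain ⟨T, rfl, hTc, hTf⟩ := hG
  refine ⟨S ⊓ T, by simp, hSc.inter hTc, ?_⟩
  -- V ⧸ (S ⊓ T) embeds into (V ⧸ S) × (V ⧸ T)
  let Ψ : V →ₗ[ℝ] (V ⧸ S) × (V ⧸ T) := LinearMap.prod S.mkQ T.mkQ
  have hker : LinearMap.ker Ψ = S ⊓ T := by
    ext y
    simp [Ψ, LinearMap.mem_ker, Prod.ext_iff]
  have h1 : FiniteDimensional ℝ (V ⧸ LinearMap.ker Ψ) :=
    (LinearMap.quotKerEquivRange Ψ).symm.finiteDimensional
  rw [hker] at h1
  exact h1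

/-- A member of a closed finite-codimensional subspace stays in it under scaling and sums. -/
theorem IsCof.smul_mem {F : Set V} (hF : IsCof F) (a : ℝ) {y : V} (hy : y ∈ F) : a • y ∈ F := by
  obtain ⟨S, rfl, -, -⟩ := hF
  exact S.smul_mem a hy

theorem IsCof.add_mem {F : Set V} (hF : IsCof F) {y z : V} (hy : y ∈ F) (hz : z ∈ F) :
    y + z ∈ F := by
  obtain ⟨S, rfl, -, -⟩ := hF
  exact S.add_mem hy hz

theorem IsCof.neg_mem {F : Set V} (hF : IsCof F) {y : V} (hy : y ∈ F) : -y ∈ F := by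
  obtain ⟨S, rfl, -, -⟩ := hF
  exact S.neg_mem hy

theorem IsCof.zero_mem {F : Set V} (hF : IsCof F) : (0 : V) ∈ F := by
  obtain ⟨S, rfl, -, -⟩ := hF
  exact S.zero_mem

end Crest.Agent.Helper7.AUC
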