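import Mathlib
import Crest.Prelude.Def_AsymptoticConvexity
import Crest.Prelude.Def_TreePotentials
import Crest.Agent.Helper7.AUCGame

/-!
Row 125 (S0166-S0169): frozen shared definitions for the tree-potential spaces, generic over the
"extra condition" of a model, so that the four models of `Def_TreePotentials` (S0168) and the
height-`n` truncations of the global model (blocks of the reflexive example of S0166) are
instances of ONE development.

* `PotClass Extra`: the abstract properties of an extra condition used by all proofs.
* `IsT Extra f`: `f` is a test (potentials bounded by `1` and `Extra f`); for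
  `Extra = ExtraCondition m` this is definitionally `IsTest m f`.
* `Test Extra`, `coordVec Extra s`, `space Extra`: the test type, the coordinate vectors and the
  generated closed subspace of `lp (fun _ : Test Extra => ℝ) ⊤`; for `Extra = ExtraCondition m`
  these are definitionally `PotentialTest m`, `coordVector m s`, `modelSpace m`.
* `ExtraH n`: the global model truncated at height `n` (all finite square sums at most `1`, and
  the family vanishes at every vertex of length greater than `n`); `Block n = space (ExtraH n)`;
  `SumSpace = lp Block 2`, the `ℓ²`-sum of the blocks, and `sumBanach` its `RealBanach` record: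
  the witness space of S0166.
-/

namespace Crest.Agent.Helper7.Tree

open Crest.AnalysisR Crest.AnalysisR.TreePotential

/-- Abstract properties of the extra condition of a tree-potential model. `mix` is the only
closure property: a family dominated by `α |f|` on a set `D` and by `κ |g|` off `D`, with
`α² + κ² ≤ 1`, satisfies the condition when `f` and `g` do. -/
structure PotClass (Extra : (List ℕ → ℝ) → Prop) : Prop where
  zero : Extra 0
  mix : ∀ (f g h : List ℕ → ℝ) (D : Set (List ℕ)) (α κ : ℝ), 0 ≤ α → 0 ≤ κ →
    α ^ 2 + κ ^ 2 ≤ 1 → Extra f → Extra g →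
    (∀ s ∈ D, abs (h s) ≤ α * abs (f s)) → (∀ s, s ∉ D → abs (h s) ≤ κ * abs (g s)) → Extra h
  sib : ∀ f, Extra f → ∀ (r : List ℕ) (A : Finset ℕ), ∑ n ∈ A, f (n :: r) ^ 2 ≤ 1
  live_or_dead : ∀ s : List ℕ, Extra (Pi.single s 1) ∨ ∀ f, Extra f → f s = 0

/-- `f` is a test for the extra condition `Extra`. -/
def IsT (Extra : (List ℕ → ℝ) → Prop) (f : List ℕ → ℝ) : Prop :=
  (∀ s : List ℕ, abs (pathPotential f s) ≤ 1) ∧ Extra f

/-- The type of tests. -/
def Test (Extra : (List ℕ → ℝ) → Prop) : Type :=
  {f : List ℕ → ℝ // IsT Extra f}

/-- A family with potentials bounded by `1` has all its values bounded by `2`. -/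
theorem abs_le_two_of_pot {g : List ℕ → ℝ} (hg : ∀ u, abs (pathPotential g u) ≤ 1)
    (s : List ℕ) : abs (g s) ≤ 2 := by
  cases s with
  | nil =>
    have h0 := hg []
    simp only [pathPotential] at h0
    linarith
  | cons a v =>
    have h1 := hg (a :: v)
    have h2 := hg v
    simp only [pathPotential] at h1
    rw [abs_le] at h1 h2 ⊢
    constructor <;> linarith [h1.1, h1.2, h2.1, h2.2]

/-- The coordinate vector of the vertex `s`: the bounded function `f ↦ f s` on the tests. -/
noncomputable def coordVec (Extra : (List ℕ → ℝ) → Prop) (s : List ℕ) :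
    lp (fun _ : Test Extra => ℝ) ⊤ :=
  ⟨fun f => f.1 s, memℓp_infty ⟨2, by
    rintro _ ⟨f, rfl⟩
    simpa [Real.norm_eq_abs] using abs_le_two_of_pot f.2.1 s⟩⟩

@[simp] theorem coordVec_apply (Extra : (List ℕ → ℝ) → Prop) (s : List ℕ) (f : Test Extra) :
    (coordVec Extra s : ∀ _ : Test Extra, ℝ) f = f.1 s := rfl

/-- The generated space: closure of the span of the coordinate vectors. -/
noncomputable def space (Extra : (List ℕ → ℝ) → Prop) :
    Submodule ℝ (lp (fun _ : Test Extra => ℝ) ⊤) :=
  (Submodule.span ℝ (Set.range (coordVec Extra))).topologicalClosure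

instance (Extra : (List ℕ → ℝ) → Prop) : CompleteSpace (space Extra) :=
  (Submodule.isClosed_topologicalClosure _).completeSpace_coe

/-- The coordinate vector of `s` as an element of the generated space. -/
noncomputable def e (Extra : (List ℕ → ℝ) → Prop) (s : List ℕ) : space Extra :=
  ⟨coordVec Extra s,
    Submodule.le_topologicalClosure _ (Submodule.subset_span ⟨s, rfl⟩)⟩

@[simp] theorem e_coe (Extra : (List ℕ → ℝ) → Prop) (s : List ℕ) :
    ((e Extra s : space Extra) : lp (fun _ : Test Extra => ℝ) ⊤) = coordVec Extra s := rfl

/-- The vector with coefficients `c` on the finite vertex set `T₀`. -/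
noncomputable def vec (Extra : (List ℕ → ℝ) → Prop) (T₀ : Finset (List ℕ)) (c : List ℕ → ℝ) :
    space Extra :=
  ∑ s ∈ T₀, c s • e Extra s

/-- Evaluation at a test, as a continuous linear functional on the generated space. -/
noncomputable def evalT (Extra : (List ℕ → ℝ) → Prop) (f : Test Extra) : space Extra →L[ℝ] ℝ :=
  LinearMap.mkContinuous
    { toFun := fun y => (y : lp (fun _ : Test Extra => ℝ) ⊤) f
      map_add' := fun _ _ => rfl
      map_smul' := fun _ _ => rfl } 1 (by
    intro y
    rw [one_mul]
    exact lp.norm_apply_le_norm ENNReal.top_ne_zero (y : lp (fun _ : Test Extra => ℝ) ⊤) f)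

@[simp] theorem evalT_apply (Extra : (List ℕ → ℝ) → Prop) (f : Test Extra) (y : space Extra) :
    evalT Extra f y = (y : lp (fun _ : Test Extra => ℝ) ⊤) f := rfl

theorem abs_evalT_le (Extra : (List ℕ → ℝ) → Prop) (f : Test Extra) (y : space Extra) :
    abs ((y : lp (fun _ : Test Extra => ℝ) ⊤) f) ≤ ‖y‖ :=
  lp.norm_apply_le_norm ENNReal.top_ne_zero (y : lp (fun _ : Test Extra => ℝ) ⊤) f

theorem evalT_e (Extra : (List ℕ → ℝ) → Prop) (f : Test Extra) (s : List ℕ) :
    evalT Extra f (e Extra s) = f.1 s := rfl

theorem evalT_vec (Extra : (List ℕ → ℝ) → Prop) (f : Test Extra) (T₀ : Finset (List ℕ))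
    (c : List ℕ → ℝ) : evalT Extra f (vec Extra T₀ c) = ∑ s ∈ T₀, c s * f.1 s := by
  unfold vec
  rw [map_sum]
  refine Finset.sum_congr rfl fun s _ => ?_
  rw [map_smul, evalT_e, smul_eq_mul]


/-- The space as a `RealBanach` record. -/
noncomputable def banach (Extra : (List ℕ → ℝ) → Prop) : RealBanach :=
  ⟨space Extra, inferInstance, inferInstance, inferInstance⟩

/-! ### Identification with the Prelude models -/

theorem isT_extraCondition (m : PotentialModel) (f : List ℕ → ℝ) :
    IsT (ExtraCondition m) f ↔ IsTest m f := Iff.rfl

theorem coordVec_eq_coordVector (m : PotentialModel) (s : List ℕ) :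
    coordVec (ExtraCondition m) s = coordVector m s := rfl

theorem space_eq_modelSpace (m : PotentialModel) :
    space (ExtraCondition m) = modelSpace m := rfl

theorem banach_eq_modelBanach (m : PotentialModel) :
    banach (ExtraCondition m) = modelBanach m := rfl

/-! ### The blocks and the `ℓ²`-sum for S0166 -/

/-- The global model truncated at height `n`: every finite sum of squares is at most `1`, and the
family vanishes at all vertices of length greater than `n`. -/
def ExtraH (n : ℕ) (f : List ℕ → ℝ) : Prop :=
  (∀ A : Finset (List ℕ), ∑ u ∈ A, f u ^ 2 ≤ 1) ∧ ∀ s : List ℕ, n < s.length → f s = 0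

/-- The `n`-th block: the space of the global model truncated at height `n`. -/
abbrev Block (n : ℕ) : Type := ↥(space (ExtraH n))

/-- The `ℓ²`-sum of the blocks. -/
abbrev SumSpace : Type := lp (fun n : ℕ => Block n) 2

/-- The witness space of S0166 as a `RealBanach` record. -/
noncomputable def sumBanach : RealBanach :=
  ⟨SumSpace, inferInstance, inferInstance, inferInstance⟩

end Crest.Agent.Helper7.Tree
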