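import Mathlib
import Crest.Agent.Helper7.AUCGame
import Crest.Agent.Helper7.AUCWeakNull

/-!
Row 125 shared tools: transfer of closed finite-codimensional subspaces and of game strategies
along continuous linear maps / linear isometric embeddings.
-/

namespace Crest.Agent.Helper7.AUC

variable {V W : Type*} [NormedAddCommGroup V] [NormedSpace ℝ V]
  [NormedAddCommGroup W] [NormedSpace ℝ W]

/-- The preimage of a closed finite-codimensional subspace under a continuous linear map is a
closed finite-codimensional subspace. -/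
theorem IsCof.preimage (L : V →L[ℝ] W) {F : Set W} (hF : IsCof F) : IsCof (L ⁻¹' F) := by
  obtain ⟨S, rfl, hSc, hSf⟩ := hF
  refine ⟨S.comap (L : V →ₗ[ℝ] W), rfl, hSc.preimage L.continuous, ?_⟩
  have hinj : Function.Injective (Submodule.mapQ (S.comap (L : V →ₗ[ℝ] W)) S (L : V →ₗ[ℝ] W) le_rfl) := by
    rw [← LinearMap.ker_eq_bot, Submodule.ker_mapQ]
    rw [Submodule.eq_bot_iff]
    intro x hx
    obtain ⟨v, rfl⟩ := Submodule.Quotient.mk_surjective _ x
    rw [Submodule.mem_map] at hx
    obtain ⟨w, hw, hwv⟩ := hx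
    rw [← hwv]
    exact (Submodule.Quotient.mk_eq_zero _).mpr hw
  exact FiniteDimensional.of_injective _ hinj

/-- Game strategies transfer along linear isometric embeddings. -/
theorem Good.map (ι : V →ₗᵢ[ℝ] W) {C ρ : ℝ} {n : ℕ} {S : V} (h : Good C ρ n S) :
    Good C ρ n (ι S) := by
  induction n generalizing S with
  | zero => trivial
  | succ n ih =>
    intro F hF
    obtain ⟨y, hyF, hyρ, hSy, hgood⟩ := h _ (hF.preimage ι.toContinuousLinearMap)
    refine ⟨ι y, hyF, ?_, ?_, ?_⟩
    · rw [ι.norm_map]; exact hyρ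
    · rw [← map_add, ι.norm_map]; exact hSy
    · rw [← map_add]; exact ih hgood

end Crest.Agent.Helper7.AUC
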