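import Mathlib
import Crest.Prelude.Def_AsymptoticConvexity
import Crest.Prelude.Def_Diamond
import Crest.Agent.Helper7.AUCGame
import Crest.Agent.Helper7.TreeDefs

/-!
Row 125, S0166: the statement-level glue. From the module deliverables (midpoint inequality in the
`ℓ²`-sum, reflexivity, separability, infinite dimension, non-renormability, diamond distortion) the
frozen statement of S0166 follows for the witness `Tree.sumBanach`.
-/

namespace Crest.Agent.Helper7.S0166Glue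

open Crest.AnalysisR Crest.Agent.Helper7 Crest.Agent.Helper7.Tree

theorem sqrt_four_add (t : ℝ) : Real.sqrt (4 + t ^ 2) = 2 * Real.sqrt (1 + t ^ 2 / 4) := by
  have h : 4 + t ^ 2 = 2 ^ 2 * (1 + t ^ 2 / 4) := by ring
  rw [h, Real.sqrt_mul (by norm_num), Real.sqrt_sq (by norm_num)]

theorem one_le_sqrt_quarter (t : ℝ) : 1 ≤ Real.sqrt (1 + t ^ 2 / 4) := by
  rw [Real.one_le_sqrt]; nlinarith [sq_nonneg t]

theorem sqrt_twelfth_le (t : ℝ) : Real.sqrt (1 + t ^ 2 / 12) ≤ Real.sqrt (1 + t ^ 2 / 4) :=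
  Real.sqrt_le_sqrt (by nlinarith [sq_nonneg t])

/-- The frozen statement of S0166 from the module deliverables. -/
theorem s0166_of
    (hmid : ∀ t : ℝ, 0 < t → ∀ x : SumSpace, ‖x‖ = 1 → ∀ η : ℝ, 0 < η →
      ∃ F : Set SumSpace, AUC.IsCof F ∧ ∀ y ∈ F, ‖y‖ = 1 →
        Real.sqrt (4 + t ^ 2) - η ≤ ‖x + t • y‖ + ‖x - t • y‖)
    (hrefl : Function.Surjective (NormedSpace.inclusionInDoubleDual ℝ SumSpace))
    (hsep : TopologicalSpace.SeparableSpace SumSpace)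
    (hinf : ¬ FiniteDimensional ℝ SumSpace)
    (hauc : ∀ N : SumSpace → ℝ, AUC.IsEquivNorm N → ¬ AUC.IsAUC N)
    (hdiam : ∀ E : RealBanach,
      (∀ t : ℝ, 0 < t → E.MaxMidpointModulusGE E.norm t (Real.sqrt (1 + t ^ 2 / 4) - 1)) →
      ∀ (k : ℕ) (f : DiamondVertex k → E.X) (D : ℝ), E.HasDistortionLE k f D →
        1 + (k : ℝ) / 4 ≤ D ^ 2) :
    ∃ E : Crest.AnalysisR.RealBanach, E.IsSeparableInfiniteDim ∧ E.IsReflexive ∧
      (∀ t : ℝ, 0 < t → E.MidpointModulusGE E.norm t (Real.sqrt (1 + t ^ 2 / 12) - 1) ∧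
        E.MidpointModulusGE E.norm t ((Real.sqrt (1 + t ^ 2 / 4) - 1) / 2) ∧
        E.MaxMidpointModulusGE E.norm t (Real.sqrt (1 + t ^ 2 / 4) - 1)) ∧
      (∀ N : E.X → ℝ, E.IsEquivNorm N → ¬ E.IsAUC N) ∧
      ∀ (k : ℕ) (f : Crest.AnalysisR.DiamondVertex k → E.X) (D : ℝ),
        E.HasDistortionLE k f D → 1 + (k : ℝ) / 4 ≤ D ^ 2 := by
  -- the averaged bound with constant sqrt(1 + t^2/4) - 1
  have havg : ∀ t : ℝ, 0 < t → ∀ x : SumSpace, ‖x‖ = 1 → ∀ η : ℝ, 0 < η →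
      ∃ F : Set SumSpace, AUC.IsCof F ∧ ∀ y ∈ F, ‖y‖ = 1 →
        Real.sqrt (1 + t ^ 2 / 4) - 1 - η ≤ (‖x + t • y‖ + ‖x - t • y‖) / 2 - 1 := by
    intro t ht x hx η hη
    obtain ⟨F, hF, hFy⟩ := hmid t ht x hx (2 * η) (by linarith)
    refine ⟨F, hF, fun y hy hy1 => ?_⟩
    have h := hFy y hy hy1
    rw [sqrt_four_add] at h
    linarith
  have hmax : ∀ t : ℝ, 0 < t →
      sumBanach.MaxMidpointModulusGE sumBanach.norm t (Real.sqrt (1 + t ^ 2 / 4) - 1) := by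
    intro t ht
    show ∀ x : SumSpace, ‖x‖ = 1 → ∀ η : ℝ, 0 < η → ∃ F : Set SumSpace, AUC.IsCof F ∧
      ∀ y ∈ F, ‖y‖ = 1 → Real.sqrt (1 + t ^ 2 / 4) - 1 - η ≤ max ‖x + t • y‖ ‖x - t • y‖ - 1
    intro x hx η hη
    obtain ⟨F, hF, hFy⟩ := havg t ht x hx η hη
    refine ⟨F, hF, fun y hy hy1 => ?_⟩
    have h := hFy y hy hy1
    have h1 := le_max_left ‖x + t • y‖ ‖x - t • y‖
    have h2 := le_max_right ‖x + t • y‖ ‖x - t • y‖
    linarith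
  refine ⟨sumBanach, ⟨hsep, hinf⟩, hrefl, ?_, hauc, hdiam sumBanach hmax⟩
  intro t ht
  refine ⟨?_, ?_, hmax t ht⟩
  · show ∀ x : SumSpace, ‖x‖ = 1 → ∀ η : ℝ, 0 < η → ∃ F : Set SumSpace, AUC.IsCof F ∧
      ∀ y ∈ F, ‖y‖ = 1 →
        Real.sqrt (1 + t ^ 2 / 12) - 1 - η ≤ (‖x + t • y‖ + ‖x - t • y‖) / 2 - 1
    intro x hx η hη
    obtain ⟨F, hF, hFy⟩ := havg t ht x hx η hη
    refine ⟨F, hF, fun y hy hy1 => ?_⟩
    have h := hFy y hy hy1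
    have h12 := sqrt_twelfth_le t
    linarith
  · show ∀ x : SumSpace, ‖x‖ = 1 → ∀ η : ℝ, 0 < η → ∃ F : Set SumSpace, AUC.IsCof F ∧
      ∀ y ∈ F, ‖y‖ = 1 →
        (Real.sqrt (1 + t ^ 2 / 4) - 1) / 2 - η ≤ (‖x + t • y‖ + ‖x - t • y‖) / 2 - 1
    intro x hx η hη
    obtain ⟨F, hF, hFy⟩ := havg t ht x hx η hη
    refine ⟨F, hF, fun y hy hy1 => ?_⟩
    have h := hFy y hy hy1
    have h1 := one_le_sqrt_quarter t
    linarith

end Crest.Agent.Helper7.S0166Glue
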