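import Mathlib
import Crest.Agent.Helper7.AUCGame
import Crest.Agent.Helper7.AUCTransfer
import Crest.Agent.Helper7.TreeDefs
import Crest.Agent.Helper27.LpSum
import Crest.Agent.Helper8.TreeBasic
import Crest.Agent.Helper2.TreeGame

/-!
Row 125, S0166: the `ℓ²`-sum of the blocks is separable, infinite-dimensional and has no
asymptotically uniformly convex equivalent norm (the `n`-round strategies of the blocks
`Block (n + 1)` are moved into the sum along the coordinate isometries).
-/

set_option autoImplicit false

namespace Crest.Agent.Helper7.S0166Sum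

open Crest.Agent.Helper7 Crest.Agent.Helper7.Tree

/-- The `ℓ²`-sum of the blocks is separable. -/
theorem sum_separable : TopologicalSpace.SeparableSpace SumSpace :=
  haveI : ∀ n : ℕ, TopologicalSpace.SeparableSpace (Block n) :=
    fun n => Crest.Agent.Helper8.block_separable n
  Crest.Agent.Helper27.separableSpace_lp_two

/-- The `ℓ²`-sum of the blocks is infinite-dimensional. -/
theorem sum_infinite_dim : ¬ FiniteDimensional ℝ SumSpace :=
  Crest.Agent.Helper27.not_finiteDimensional_lp_two (E := fun n : ℕ => Block n) 1
    (Crest.Agent.Helper8.block_infinite_dim 0)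

/-- No equivalent norm on the `ℓ²`-sum of the blocks is asymptotically uniformly convex. -/
theorem sum_not_auc : ∀ N : SumSpace → ℝ, AUC.IsEquivNorm N → ¬ AUC.IsAUC N := by
  classical
  refine AUC.not_isAUC_of_good (C := 3) (ρ := 1 / 2) (by norm_num) ?_
  intro n
  obtain ⟨S, hS1, hS2, hS3⟩ := Crest.Agent.Helper2.TreeGame.block_good n
  refine ⟨Crest.Agent.Helper27.lpSingle (E := fun n : ℕ => Block n) (n + 1) S, ?_, ?_,
    AUC.Good.map _ hS3⟩
  · rw [LinearIsometry.norm_map]; exact hS1
  · rw [LinearIsometry.norm_map]; exact hS2

end Crest.Agent.Helper7.S0166Sum
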